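import Vale.Agent.P331.H250.Ker
import Vale.Agent.P331.H379.JLabel

/-!
# Lemma L: one step of the chain, assembled

`D` is an up-set of finite sets, `V` the test set, `S` the sample.  Everything the rule evaluates is
a thinning of `S`.
-/

set_option autoImplicit false
set_option linter.unusedSectionVars false

namespace Vale.Agent.P331.H722

open Finset Vale.Agent.P331.H489 Vale.Agent.P331.H250 Vale.Agent.P331.H379
open scoped Classical

variable {E : Type*} [Fintype E]

/-- probability that `A` with a thinning of `R` misses `D` -/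
noncomputable def mis (D : Finset E → Prop) (c : ℝ) (R A : Finset E) : ℝ :=
  TH (fun _ => c) R (fun N => if D (A ∪ N) then 0 else 1)

theorem mis_nonneg {D : Finset E → Prop} {c : ℝ} (h0 : 0 ≤ c) (h1 : c ≤ 1) (R A : Finset E) :
    0 ≤ mis D c R A :=
  TH_nonneg (fun _ => h0) (fun _ => h1) R fun G _ => by split_ifs <;> norm_num

theorem mis_le_one {D : Finset E → Prop} {c : ℝ} (h0 : 0 ≤ c) (h1 : c ≤ 1) (R A : Finset E) :
    mis D c R A ≤ 1 := by
  refine (TH_mono (fun _ => h0) (fun _ => h1) R (g := fun _ => 1) fun G _ => ?_).trans_eq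
    (TH_const _ _ _)
  split_ifs <;> norm_num

/-- the noise level for the set `R` without two pools -/
noncomputable def hyp (D : Finset E → Prop) (kap : ℕ) (c t : ℝ) (R G A : Finset E) : Prop :=
  ∃ Y ⊆ A, Y.card ≤ kap ∧ mis D c (R \ G) (Y ∪ G) ≤ t

theorem hyp_mono {D : Finset E → Prop} {kap : ℕ} {c t : ℝ} {R G A B : Finset E} (h : A ⊆ B)
    (hA : hyp D kap c t R G A) : hyp D kap c t R G B := by
  obtain ⟨Y, hY, h1⟩ := hA
  exact ⟨Y, hY.trans h, h1⟩

/-- the family of the sets `A` which are good for most pools inside `R` -/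
def InF (D : Finset E → Prop) (kap : ℕ) (gam nu t a : ℝ) (R A : Finset E) : Prop :=
  1 - a ≤ TH (fun _ => gam / (1 - gam)) R
    (fun G => if hyp D kap (nu / (1 - 2 * gam)) t R G A then 1 else 0)

/-- the rates -/
structure Rates (gam nu : ℝ) : Prop where
  g0 : 0 ≤ gam
  gn : gam ≤ nu
  h1 : nu + 2 * gam < 1

namespace Rates

variable {gam nu : ℝ} (h : Rates gam nu)
include h

theorem g1 : 0 < 1 - gam := by have := h.g0; have := h.gn; have := h.h1; linarith
theorem g2 : 0 < 1 - 2 * gam := by have := h.g0; have := h.gn; have := h.h1; linarith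
theorem n0 : 0 ≤ nu := h.g0.trans h.gn

theorem gle : gam ≤ 1 := by have := h.g1; linarith

theorem a0 : 0 ≤ gam / (1 - gam) := div_nonneg h.g0 h.g1.le
theorem a1 : gam / (1 - gam) ≤ 1 := by
  rw [div_le_one h.g1]; have := h.g2; linarith

theorem b0 : 0 ≤ nu / (1 - gam) := div_nonneg h.n0 h.g1.le
theorem b1 : nu / (1 - gam) ≤ 1 := by
  rw [div_le_one h.g1]; have := h.g0; have := h.h1; linarith

theorem c0 : 0 ≤ nu / (1 - 2 * gam) := div_nonneg h.n0 h.g2.le
theorem c1 : nu / (1 - 2 * gam) ≤ 1 := by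
  rw [div_le_one h.g2]; have := h.g0; have := h.h1; linarith

theorem d0 : 0 ≤ (nu - gam) / (1 - 2 * gam) := div_nonneg (by linarith [h.gn]) h.g2.le
theorem d1 : (nu - gam) / (1 - 2 * gam) ≤ 1 := by
  rw [div_le_one h.g2]; have := h.g0; have := h.h1; linarith

theorem e1 : (1 - gam) * (gam / (1 - gam)) = gam := by
  have := h.g1.ne'; field_simp

theorem e0 : 1 - gam / (1 - gam) = (1 - 2 * gam) / (1 - gam) := by
  have := h.g1.ne'
  rw [eq_div_iff this, sub_mul, div_mul_cancel₀ _ this]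
  ring

theorem e2 : (1 - gam / (1 - gam)) * (nu / (1 - 2 * gam)) = nu / (1 - gam) := by
  rw [h.e0, div_mul_div_comm, mul_comm (1 - gam), mul_div_mul_left _ _ h.g2.ne']

theorem e3 : gam / (1 - gam) + (1 - gam / (1 - gam)) * ((nu - gam) / (1 - 2 * gam)) =
    nu / (1 - gam) := by
  rw [h.e0, div_mul_div_comm, mul_comm (1 - gam), mul_div_mul_left _ _ h.g2.ne', ← add_div]
  congr 1
  ring

end Rates

/-- **(a)** transfer to the sample without a fresh pool -/
theorem transfer {D : Finset E → Prop} {gam nu : ℝ} (hr : Rates gam nu) {kap : ℕ}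
    {t t' tau a : ℝ} (ht : 0 ≤ t) (ht' : 0 < t') (ha : 0 < a) (S K : Finset E)
    (h : TH (fun _ => gam) S
      (fun G => if hyp D kap (nu / (1 - gam)) t S G K then 0 else 1) ≤ tau) :
    TH (fun _ => gam) S (fun G₂ => if InF D kap gam nu t' a (S \ G₂) K then 0 else 1) ≤
      (tau + t / t') / a := by
  have hJ : TH (fun _ => gam) S (fun G₂ => TH (fun _ => gam / (1 - gam)) (S \ G₂)
      (fun G => if hyp D kap (nu / (1 - 2 * gam)) t' (S \ G₂) G K then 0 else 1)) ≤
      tau + t / t' := by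
    rw [TH_TH_swap (fun _ => gam) (fun _ => gam / (1 - gam)) (fun _ => gam)
      (fun _ => gam / (1 - gam)) S (fun _ _ => hr.e1) (fun _ _ => hr.e1)
      (fun G₂ G => if hyp D kap (nu / (1 - 2 * gam)) t' (S \ G₂) G K then 0 else 1)]
    have h2 : ∀ G ⊆ S, TH (fun _ => gam / (1 - gam)) (S \ G)
        (fun G₂ => if hyp D kap (nu / (1 - 2 * gam)) t' (S \ G₂) G K then (0 : ℝ) else 1) ≤
        (if hyp D kap (nu / (1 - gam)) t S G K then 0 else 1) + t / t' := by
      intro G _
      by_cases hG : hyp D kap (nu / (1 - gam)) t S G K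
      · rw [if_pos hG, zero_add, le_div_iff₀ ht', mul_comm]
        obtain ⟨Y, hYK, hYc, hYm⟩ := hG
        have h3 : TH (fun _ => gam / (1 - gam)) (S \ G)
            (fun G₂ => mis D (nu / (1 - 2 * gam)) ((S \ G₂) \ G) (Y ∪ G)) =
            mis D (nu / (1 - gam)) (S \ G) (Y ∪ G) := by
          unfold mis
          rw [← TH_TH_snd (fun _ => gam / (1 - gam)) (fun _ => nu / (1 - 2 * gam))
            (fun _ => nu / (1 - gam)) (S \ G) (fun _ _ => hr.e2)
            (fun N => if D (Y ∪ G ∪ N) then (0 : ℝ) else 1)]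
          refine TH_congr (fun _ _ => rfl) fun G₂ _ => ?_
          rw [sdiff_sdiff_comm]
        refine le_trans ?_ (h3.trans_le hYm)
        have h4 := TH_markov (r := fun _ : E => gam / (1 - gam)) (fun _ => hr.a0)
          (fun _ => hr.a1) (S \ G)
          (f := fun G₂ => mis D (nu / (1 - 2 * gam)) ((S \ G₂) \ G) (Y ∪ G))
          (fun G₂ _ => mis_nonneg hr.c0 hr.c1 _ _) (t := t')
          (fun G₂ => ¬ hyp D kap (nu / (1 - 2 * gam)) t' (S \ G₂) G K) ?_
        · refine le_trans (le_of_eq ?_) h4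
          congr 1
          refine TH_congr (fun _ _ => rfl) fun G₂ _ => ?_
          by_cases h5 : hyp D kap (nu / (1 - 2 * gam)) t' (S \ G₂) G K <;> simp [h5]
        · intro G₂ _ hn
          by_contra hlt
          exact hn ⟨Y, hYK, hYc, (not_le.1 hlt).le⟩
      · rw [if_neg hG]
        have h5 : 0 ≤ t / t' := div_nonneg ht ht'.le
        have h6 : TH (fun _ => gam / (1 - gam)) (S \ G)
            (fun G₂ => if hyp D kap (nu / (1 - 2 * gam)) t' (S \ G₂) G K then (0 : ℝ) else 1)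
            ≤ 1 := by
          refine (TH_mono (fun _ => hr.a0) (fun _ => hr.a1) _ (g := fun _ => 1)
            fun G _ => ?_).trans_eq (TH_const _ _ _)
          split_ifs <;> norm_num
        linarith
    refine (TH_mono (fun _ => hr.g0) (fun _ => hr.gle) S h2).trans ?_
    rw [TH_add, TH_const]
    linarith
  rw [le_div_iff₀ ha, mul_comm]
  refine le_trans ?_ hJ
  have h4 := TH_markov (r := fun _ : E => gam) (fun _ => hr.g0)
    (fun _ => hr.gle) S
    (f := fun G₂ => TH (fun _ => gam / (1 - gam)) (S \ G₂)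
      (fun G => if hyp D kap (nu / (1 - 2 * gam)) t' (S \ G₂) G K then 0 else 1))
    (fun G₂ _ => TH_nonneg (fun _ => hr.a0) (fun _ => hr.a1) _ fun _ _ => by
      split_ifs <;> norm_num) (t := a)
    (fun G₂ => ¬ InF D kap gam nu t' a (S \ G₂) K) ?_
  · refine le_trans (le_of_eq ?_) h4
    congr 1
    refine TH_congr (fun _ _ => rfl) fun G₂ _ => ?_
    by_cases h5 : InF D kap gam nu t' a (S \ G₂) K <;> simp [h5]
  · intro G₂ _ hn
    unfold InF at hn
    have h5 : TH (fun _ => gam / (1 - gam)) (S \ G₂)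
        (fun G => if hyp D kap (nu / (1 - 2 * gam)) t' (S \ G₂) G K then (0 : ℝ) else 1) =
        1 - TH (fun _ => gam / (1 - gam)) (S \ G₂)
        (fun G => if hyp D kap (nu / (1 - 2 * gam)) t' (S \ G₂) G K then (1 : ℝ) else 0) := by
      have h7 := TH_sub (fun _ : E => gam / (1 - gam)) (S \ G₂) (fun _ => (1 : ℝ))
        (fun G => if hyp D kap (nu / (1 - 2 * gam)) t' (S \ G₂) G K then (1 : ℝ) else 0)
      rw [TH_const] at h7
      rw [← h7]
      refine TH_congr (fun _ _ => rfl) fun G _ => ?_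
      split_ifs <;> norm_num
    rw [h5]
    linarith

/-! ## Labels -/

/-- test, sample, outside -/
inductive L3 | v | s | o
  deriving DecidableEq

/-- test, pool, rest of the sample, outside -/
inductive L4 | v | g | r | o
  deriving DecidableEq

instance : Fintype L3 := ⟨{L3.v, L3.s, L3.o}, by intro x; cases x <;> decide⟩
instance : Fintype L4 := ⟨{L4.v, L4.g, L4.r, L4.o}, by intro x; cases x <;> decide⟩

theorem sum_L3 (f : L3 → ℝ) : ∑ l, f l = f L3.v + f L3.s + f L3.o := by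
  have h : (univ : Finset L3) = {L3.v, L3.s, L3.o} := rfl
  rw [h, sum_insert (by decide), sum_insert (by decide), sum_singleton]
  ring

theorem sum_L4 (f : L4 → ℝ) : ∑ l, f l = f L4.v + f L4.g + f L4.r + f L4.o := by
  have h : (univ : Finset L4) = {L4.v, L4.g, L4.r, L4.o} := rfl
  rw [h, sum_insert (by decide), sum_insert (by decide), sum_insert (by decide), sum_singleton]
  ring

/-- the law of test and sample -/
def w3 (p sg : E → ℝ) (e : E) : L3 → ℝ
  | L3.v => p e
  | L3.s => sg e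
  | L3.o => 1 - p e - sg e

/-- the law of test, pool and rest -/
def w4 (p sg : E → ℝ) (gam : ℝ) (e : E) : L4 → ℝ
  | L4.v => p e
  | L4.g => sg e * gam
  | L4.r => sg e * (1 - gam)
  | L4.o => 1 - p e - sg e

theorem w4_sum (p sg : E → ℝ) (gam : ℝ) (e : E) : ∑ l, w4 p sg gam e l = 1 := by
  rw [sum_L4]
  simp only [w4]
  ring

theorem w3_nonneg {p sg : E → ℝ} (hp : ∀ e, 0 ≤ p e) (hs : ∀ e, 0 ≤ sg e)
    (hps : ∀ e, p e + sg e ≤ 1) (e : E) (l : L3) : 0 ≤ w3 p sg e l := by
  have := hp e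
  have := hs e
  have := hps e
  cases l <;> simp only [w3] <;> linarith

theorem w4_nonneg {p sg : E → ℝ} (hp : ∀ e, 0 ≤ p e) (hs : ∀ e, 0 ≤ sg e)
    (hps : ∀ e, p e + sg e ≤ 1) {gam : ℝ} (h0 : 0 ≤ gam) (h1 : gam ≤ 1) (e : E) (l : L4) :
    0 ≤ w4 p sg gam e l := by
  have := hp e
  have := hs e
  have := hps e
  cases l <;> simp only [w4]
  · linarith
  · exact mul_nonneg (hs e) h0
  · exact mul_nonneg (hs e) (by linarith)
  · linarith

/-- **the split of the sample** -/
theorem split_law (p sg : E → ℝ) (gam : ℝ)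
    (H : Finset E → Finset E → Finset E → ℝ) :
    EX (w3 p sg) (fun ω => TH (fun _ => gam) (lab L3.s ω)
      (fun G => H (lab L3.v ω) (lab L3.s ω) G)) =
    EX (w4 p sg gam) (fun κ => H (lab L4.v κ) (lab L4.g κ ∪ lab L4.r κ) (lab L4.g κ)) := by
  let k : E → L3 → Bool → ℝ := fun _ l b =>
    if l = L3.s then (if b then gam else 1 - gam) else (if b then 0 else 1)
  let g : L3 × Bool → L4 := fun x => match x with
    | (L3.v, _) => L4.v
    | (L3.s, true) => L4.g
    | (L3.s, false) => L4.r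
    | (L3.o, _) => L4.o
  have h1 : EX (w3 p sg) (fun ω => TH (fun _ => gam) (lab L3.s ω)
      (fun G => H (lab L3.v ω) (lab L3.s ω) G)) =
      EX (w3 p sg) (fun ω => EX (fun e => k e (ω e))
        (fun b => H (lab L3.v ω) (lab L3.s ω) (tset b))) := by
    unfold TH
    refine EX_congr (fun _ _ => rfl) fun ω => EX_congr (fun e b => ?_) fun _ => rfl
    simp only [bw, k, mem_lab]
  rw [h1, EX_bind (w3 p sg) k (fun ω b => H (lab L3.v ω) (lab L3.s ω) (tset b)),
    EX_congr_supp (G := fun τ => (fun κ : E → L4 => H (lab L4.v κ)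
      (lab L4.g κ ∪ lab L4.r κ) (lab L4.g κ)) (g ∘ τ)) ?_]
  · refine (EX_push g _ (fun κ : E → L4 => H (lab L4.v κ)
      (lab L4.g κ ∪ lab L4.r κ) (lab L4.g κ))).trans ?_
    refine EX_congr (fun e c => ?_) fun _ => rfl
    rw [sum_filter, Fintype.sum_prod_type, sum_L3, Fintype.sum_bool, Fintype.sum_bool,
      Fintype.sum_bool]
    cases c <;> simp [g, k, w3, w4]
  · intro τ hτ
    have e1 : lab L3.v (fun e => (τ e).1) = lab L4.v (g ∘ τ) := by
      ext e
      simp only [mem_lab, g, Function.comp]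
      rcases h : τ e with ⟨l, b⟩
      cases l <;> cases b <;> simp
    have e2 : lab L3.s (fun e => (τ e).1) = lab L4.g (g ∘ τ) ∪ lab L4.r (g ∘ τ) := by
      ext e
      simp only [mem_union, mem_lab, g, Function.comp]
      rcases h : τ e with ⟨l, b⟩
      cases l <;> cases b <;> simp
    have e3 : tset (fun e => (τ e).2) = lab L4.g (g ∘ τ) := by
      ext e
      simp only [mem_tset, mem_lab, g, Function.comp]
      have h2 := hτ e
      rcases h : τ e with ⟨l, b⟩
      rw [h] at h2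
      cases l <;> cases b <;> simp_all [k]
    show H (lab L3.v (fun e => (τ e).1)) (lab L3.s (fun e => (τ e).1))
      (tset (fun e => (τ e).2)) = _
    rw [e1, e2, e3]

/-! ## The natural side -/

/-- the event of the quenched inequality -/
def QEv (D : Finset E → Prop) (kap : ℕ) (gam nu t a : ℝ) (R A G : Finset E) : Prop :=
  hyp D kap (nu / (1 - 2 * gam)) t R G A ∧
    a ≤ mis D ((nu - gam) / (1 - 2 * gam)) (R \ G) (A ∪ G)

/-- **(c), (d)**: the pool and the noise of the next level -/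
theorem nat_side {D : Finset E → Prop} {gam nu : ℝ} (hr : Rates gam nu) {kap : ℕ}
    {t a b : ℝ} (hb : 3 * a ≤ b) {R A : Finset E} (hF : InF D kap gam nu t a R A)
    (hm : b < mis D (nu / (1 - gam)) R A) :
    a ≤ TH (fun _ => gam / (1 - gam)) R
      (fun G => if QEv D kap gam nu t a R A G then 1 else 0) := by
  have h1 : mis D (nu / (1 - gam)) R A = TH (fun _ => gam / (1 - gam)) R
      (fun G => mis D ((nu - gam) / (1 - 2 * gam)) (R \ G) (A ∪ G)) := by
    unfold mis
    rw [← TH_TH_union (fun _ => gam / (1 - gam)) (fun _ => (nu - gam) / (1 - 2 * gam))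
      (fun _ => nu / (1 - gam)) R (fun _ _ => hr.e3)
      (fun N => if D (A ∪ N) then (0 : ℝ) else 1)]
    refine TH_congr (fun _ _ => rfl) fun G _ => TH_congr (fun _ _ => rfl) fun N _ => ?_
    rw [union_assoc]
  have h2 : TH (fun _ => gam / (1 - gam)) R
      (fun G => mis D ((nu - gam) / (1 - 2 * gam)) (R \ G) (A ∪ G)) ≤
      TH (fun _ => gam / (1 - gam)) R (fun G =>
        (1 - (if hyp D kap (nu / (1 - 2 * gam)) t R G A then (1 : ℝ) else 0)) +
        (if QEv D kap gam nu t a R A G then (1 : ℝ) else 0) + a) := by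
    refine TH_mono (fun _ => hr.a0) (fun _ => hr.a1) R fun G _ => ?_
    have h3 := mis_le_one (D := D) hr.d0 hr.d1 (R \ G) (A ∪ G)
    have h4 := mis_nonneg (D := D) hr.d0 hr.d1 (R \ G) (A ∪ G)
    by_cases h5 : hyp D kap (nu / (1 - 2 * gam)) t R G A
    · by_cases h6 : a ≤ mis D ((nu - gam) / (1 - 2 * gam)) (R \ G) (A ∪ G)
      · have h7 : QEv D kap gam nu t a R A G := ⟨h5, h6⟩
        have h8 : 0 ≤ a + 1 ∨ a < 0 := by
          rcases le_or_gt 0 a with h | h
          · left; linarith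
          · right; exact h
        rw [if_pos h5, if_pos h7]
        unfold InF at hF
        have h9 : TH (fun _ : E => gam / (1 - gam)) R
            (fun G => if hyp D kap (nu / (1 - 2 * gam)) t R G A then (1 : ℝ) else 0) ≤ 1 := by
          refine (TH_mono (fun _ => hr.a0) (fun _ => hr.a1) R (g := fun _ => 1)
            fun G _ => ?_).trans_eq (TH_const _ _ _)
          split_ifs <;> norm_num
        linarith
      · have h7 : ¬ QEv D kap gam nu t a R A G := fun h => h6 h.2
        rw [if_pos h5, if_neg h7]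
        push Not at h6
        linarith
    · have h7 : ¬ QEv D kap gam nu t a R A G := fun h => h5 h.1
      rw [if_neg h5, if_neg h7]
      unfold InF at hF
      have h9 : TH (fun _ : E => gam / (1 - gam)) R
          (fun G => if hyp D kap (nu / (1 - 2 * gam)) t R G A then (1 : ℝ) else 0) ≤ 1 := by
        refine (TH_mono (fun _ => hr.a0) (fun _ => hr.a1) R (g := fun _ => 1)
          fun G _ => ?_).trans_eq (TH_const _ _ _)
        split_ifs <;> norm_num
      linarith
  rw [TH_add, TH_add, TH_sub, TH_const, TH_const] at h2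
  unfold InF at hF
  linarith

/-! ## The chain step -/

/-- there is a good subset -/
def goodE (D : Finset E → Prop) (gam nu : ℝ) (kap : ℕ) (t : ℝ) (S G X : Finset E) : Prop :=
  ∃ Y ⊆ X, Y.card ≤ kap ∧ mis D (nu / (1 - gam)) (S \ G) (Y ∪ G) ≤ t / (Y.card + 1)

/-- probability that there is no good subset -/
noncomputable def fz (D : Finset E → Prop) (gam nu : ℝ) (kap : ℕ) (t : ℝ)
    (S X : Finset E) : ℝ :=
  TH (fun _ => gam) S (fun G => if goodE D gam nu kap t S G X then 0 else 1)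

/-- the bad event of the pair of levels -/
def Bd (D : Finset E → Prop) (gam nu : ℝ) (kap₀ kap₁ Z₀ : ℕ) (t₀ t₁ tau₀ tau₁ : ℝ)
    (V S : Finset E) : Prop :=
  ∃ X ⊆ V, fz D gam nu kap₁ t₁ S X ≤ tau₁ ∧
    ∀ X' ⊆ X, X'.card ≤ Z₀ → tau₀ / (X'.card + 1) < fz D gam nu kap₀ t₀ S X'

/-- the significant elements -/
def Sg (D : Finset E → Prop) (gam nu : ℝ) (kap : ℕ) (de : ℝ) (V S G : Finset E) (f : E) :
    Prop :=
  ∃ Y ⊆ V, f ∉ Y ∧ Y.card + 1 ≤ kap ∧
    de ≤ mis D (nu / (1 - gam)) (S \ G) (Y ∪ G) -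
      mis D (nu / (1 - gam)) (S \ G) (insert f Y ∪ G)

theorem good_or_sg {D : Finset E → Prop} {gam nu : ℝ} {kap : ℕ} {t : ℝ} (ht : 0 ≤ t)
    {V S G K Es : Finset E} (hK : K ⊆ V) (h : goodE D gam nu kap t S G K)
    (h' : ¬ goodE D gam nu kap t S G (K ∩ Es)) :
    ∃ f ∈ V, f ∉ Es ∧ Sg D gam nu kap (t / ((kap : ℝ) + 1) ^ 2) V S G f := by
  classical
  have hex : ∃ n : ℕ, ∃ Y ⊆ K, Y.card = n ∧ Y.card ≤ kap ∧
      mis D (nu / (1 - gam)) (S \ G) (Y ∪ G) ≤ t / (Y.card + 1) := by
    obtain ⟨Y, h1, h2, h3⟩ := h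
    exact ⟨_, Y, h1, rfl, h2, h3⟩
  obtain ⟨Y, hYK, hYn, hYc, hYm⟩ := Nat.find_spec hex
  have hmin := fun (m : ℕ) (hm : m < Nat.find hex) => Nat.find_min hex hm
  have hne : ¬ Y ⊆ Es := fun h1 => h' ⟨Y, subset_inter hYK h1, hYc, hYm⟩
  obtain ⟨f, hfY, hfE⟩ := not_subset.1 hne
  have hcard : (Y.erase f).card + 1 = Y.card := card_erase_add_one hfY
  refine ⟨f, hK (hYK hfY), hfE, Y.erase f, (erase_subset _ _).trans (hYK.trans hK),
    notMem_erase _ _, by omega, ?_⟩
  rw [insert_erase hfY]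
  have h1 : t / ((Y.erase f).card + 1) <
      mis D (nu / (1 - gam)) (S \ G) (Y.erase f ∪ G) := by
    by_contra hcon
    refine hmin (Y.erase f).card (by omega) ⟨Y.erase f, (erase_subset _ _).trans hYK, rfl,
      by omega, not_lt.1 hcon⟩
  have hc : ((Y.erase f).card : ℝ) + 1 = Y.card := by exact_mod_cast hcard
  rw [hc] at h1
  have hy0 : (0 : ℝ) < Y.card := by
    rw [← hc]; positivity
  have hyk : (Y.card : ℝ) ≤ kap := by exact_mod_cast hYc
  have h2 : t / ((kap : ℝ) + 1) ^ 2 ≤ t / Y.card - t / (Y.card + 1) := by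
    have h3 : t / (Y.card : ℝ) - t / (Y.card + 1) = t / (Y.card * (Y.card + 1)) := by
      field_simp
      ring
    rw [h3]
    refine div_le_div_of_nonneg_left ht (by positivity) ?_
    nlinarith
  linarith

theorem InF_mono {D : Finset E → Prop} {kap : ℕ} {gam nu t a : ℝ} (hr : Rates gam nu)
    {R A B : Finset E} (h : A ⊆ B) (hA : InF D kap gam nu t a R A) :
    InF D kap gam nu t a R B := by
  unfold InF at hA ⊢
  refine hA.trans (TH_mono (fun _ => hr.a0) (fun _ => hr.a1) R fun G _ => ?_)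
  by_cases h1 : hyp D kap (nu / (1 - 2 * gam)) t R G A
  · rw [if_pos h1, if_pos (hyp_mono h h1)]
  · rw [if_neg h1]
    split_ifs <;> norm_num

theorem goodE_hyp {D : Finset E → Prop} {gam nu : ℝ} {kap : ℕ} {t : ℝ} (ht : 0 ≤ t)
    {S G K : Finset E} (h : goodE D gam nu kap t S G K) :
    hyp D kap (nu / (1 - gam)) t S G K := by
  obtain ⟨Y, h1, h2, h3⟩ := h
  refine ⟨Y, h1, h2, h3.trans (div_le_self ht ?_)⟩
  have : (0 : ℝ) ≤ Y.card := by positivity
  linarith

/-- **Lemma L**, one level, all the ingredients being assembled: `q` bounds the event of the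
quenched inequality for the natural pool, `be` the probability that a test element outside `Es` is
significant. -/
theorem luck {D : Finset E → Prop} {gam nu : ℝ} (hr : Rates gam nu) {kap₀ kap₁ Z₀ : ℕ}
    {t₀ t₁ t₁' tau₀ tau₁ a q be lam : ℝ} (ht₀ : 0 ≤ t₀) (ht₁ : 0 ≤ t₁) (ht₁' : 0 < t₁')
    (htau₀ : 0 ≤ tau₀) (ha : 0 < a) (hat : 3 * a ≤ t₀ / (kap₀ + 1))
    {p sg : E → ℝ} (hp : ∀ e, 0 ≤ p e) (hs : ∀ e, 0 ≤ sg e) (hps : ∀ e, p e + sg e ≤ 1)
    (hlam : 1 ≤ lam) (hl : ∀ e, lam * p e ≤ sg e * gam)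
    {Es : Finset E} (hEs : Es.card ≤ Z₀)
    (hq : EX (w4 p sg gam) (fun κ => TH (fun _ => gam / (1 - gam)) (lab L4.r κ)
      (fun G => if QEv D kap₁ gam nu t₁' a (lab L4.r κ) (lab L4.g κ) G then 1 else 0)) ≤ q)
    (hbe : EX (w3 p sg) (fun ω => TH (fun _ => gam) (lab L3.s ω)
      (fun G => if ∃ f ∈ lab L3.v ω, f ∉ Es ∧
        Sg D gam nu kap₀ (t₀ / ((kap₀ : ℝ) + 1) ^ 2) (lab L3.v ω) (lab L3.s ω) G f
        then 1 else 0)) ≤ be) :
    (tau₀ / (Z₀ + 1) - (tau₁ + t₁ / t₁') / a) *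
      EX (w3 p sg) (fun ω => if Bd D gam nu kap₀ kap₁ Z₀ t₀ t₁ tau₀ tau₁ (lab L3.v ω)
        (lab L3.s ω) then 1 else 0) ≤ (lam ^ (kap₀ + 1))⁻¹ + q / a + be := by
  classical
  let Bad : Finset E → Finset E → Prop := Bd D gam nu kap₀ kap₁ Z₀ t₀ t₁ tau₀ tau₁
  let K : Finset E → Finset E → Finset E := fun V S => if h : Bad V S then h.choose else ∅
  have hK : ∀ V S, Bad V S → K V S ⊆ V ∧ fz D gam nu kap₁ t₁ S (K V S) ≤ tau₁ ∧
      ∀ X' ⊆ K V S, X'.card ≤ Z₀ → tau₀ / (X'.card + 1) < fz D gam nu kap₀ t₀ S X' := by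
    intro V S h
    have h1 : K V S = h.choose := dif_pos h
    rw [h1]
    exact h.choose_spec
  obtain ⟨XX, hXX⟩ : ∃ XX : Finset E → Finset E → Finset E → Prop, ∀ V S G, XX V S G ↔
      Bad V S ∧ ¬ goodE D gam nu kap₀ t₀ S G (K V S) ∧
      InF D kap₁ gam nu t₁' a (S \ G) (K V S) := ⟨_, fun _ _ _ => Iff.rfl⟩
  -- pointwise inequality
  have hpt : ∀ V S : Finset E, (tau₀ / (Z₀ + 1) - (tau₁ + t₁ / t₁') / a) *
      (if Bad V S then 1 else 0) ≤
      TH (fun _ => gam) S (fun G => (if XX V S G then (1 : ℝ) else 0) +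
        (if ∃ f ∈ V, f ∉ Es ∧ Sg D gam nu kap₀ (t₀ / ((kap₀ : ℝ) + 1) ^ 2) V S G f
          then (1 : ℝ) else 0)) := by
    intro V S
    have hnn : 0 ≤ TH (fun _ => gam) S (fun G => (if XX V S G then (1 : ℝ) else 0) +
        (if ∃ f ∈ V, f ∉ Es ∧ Sg D gam nu kap₀ (t₀ / ((kap₀ : ℝ) + 1) ^ 2) V S G f
          then (1 : ℝ) else 0)) := by
      refine TH_nonneg (fun _ => hr.g0) (fun _ => hr.gle) S fun G _ => ?_
      split_ifs <;> norm_num
    by_cases hB : Bad V S
    · rw [if_pos hB, mul_one]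
      obtain ⟨hKV, hK1, hK0⟩ := hK V S hB
      have h1 := hK0 (K V S ∩ Es) inter_subset_left
        ((card_le_card inter_subset_right).trans hEs)
      have h2 : tau₀ / (Z₀ + 1) ≤ tau₀ / (((K V S ∩ Es).card : ℝ) + 1) := by
        refine div_le_div_of_nonneg_left htau₀ (Nat.cast_add_one_pos _) ?_
        have : ((K V S ∩ Es).card : ℝ) ≤ Z₀ := by
          exact_mod_cast (card_le_card inter_subset_right).trans hEs
        linarith
      have h3 := transfer hr (D := D) (kap := kap₁) ht₁ ht₁' ha S (K V S) (tau := tau₁) (by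
        refine le_trans (TH_mono (fun _ => hr.g0) (fun _ => hr.gle) S fun G _ => ?_) hK1
        by_cases h4 : goodE D gam nu kap₁ t₁ S G (K V S)
        · rw [if_pos h4, if_pos (goodE_hyp ht₁ h4)]
        · rw [if_neg h4]
          split_ifs <;> norm_num)
      have h4 : fz D gam nu kap₀ t₀ S (K V S ∩ Es) ≤
          TH (fun _ => gam) S (fun G => ((if XX V S G then (1 : ℝ) else 0) +
            (if ∃ f ∈ V, f ∉ Es ∧ Sg D gam nu kap₀ (t₀ / ((kap₀ : ℝ) + 1) ^ 2) V S G f
              then (1 : ℝ) else 0)) +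
            (if InF D kap₁ gam nu t₁' a (S \ G) (K V S) then 0 else 1)) := by
        refine TH_mono (fun _ => hr.g0) (fun _ => hr.gle) S fun G _ => ?_
        by_cases h5 : goodE D gam nu kap₀ t₀ S G (K V S ∩ Es)
        · rw [if_pos h5]
          have : ∀ (P Q R : Prop) [Decidable P] [Decidable Q] [Decidable R],
              (0 : ℝ) ≤ (if P then (1 : ℝ) else 0) + (if Q then (1 : ℝ) else 0) +
                (if R then 0 else 1) := by
            intro P Q R _ _ _
            split_ifs <;> norm_num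
          exact this _ _ _
        · rw [if_neg h5]
          by_cases h6 : InF D kap₁ gam nu t₁' a (S \ G) (K V S)
          · rw [if_pos h6]
            by_cases h7 : goodE D gam nu kap₀ t₀ S G (K V S)
            · rw [if_pos (good_or_sg ht₀ hKV h7 h5)]
              split_ifs <;> norm_num
            · have h8 : XX V S G := (hXX _ _ _).2 ⟨hB, h7, h6⟩
              rw [if_pos h8]
              split_ifs <;> norm_num
          · rw [if_neg h6]
            split_ifs <;> norm_num
      rw [TH_add] at h4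
      linarith
    · rw [if_neg hB, mul_zero]
      exact hnn
  -- integrate
  have hw3 := w3_nonneg hp hs hps
  have hw4 := w4_nonneg hp hs hps hr.g0 hr.gle
  have h1 : (tau₀ / (Z₀ + 1) - (tau₁ + t₁ / t₁') / a) *
      EX (w3 p sg) (fun ω => if Bad (lab L3.v ω) (lab L3.s ω) then 1 else 0) ≤
      EX (w3 p sg) (fun ω => TH (fun _ => gam) (lab L3.s ω)
        (fun G => if XX (lab L3.v ω) (lab L3.s ω) G then (1 : ℝ) else 0)) + be := by
    rw [← EX_mul]
    refine (EX_mono hw3 fun ω => hpt (lab L3.v ω) (lab L3.s ω)).trans ?_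
    have h2 : EX (w3 p sg) (fun ω => TH (fun _ => gam) (lab L3.s ω)
        (fun G => (if XX (lab L3.v ω) (lab L3.s ω) G then (1 : ℝ) else 0) +
        (if ∃ f ∈ lab L3.v ω, f ∉ Es ∧ Sg D gam nu kap₀ (t₀ / ((kap₀ : ℝ) + 1) ^ 2)
          (lab L3.v ω) (lab L3.s ω) G f then (1 : ℝ) else 0))) =
        EX (w3 p sg) (fun ω => TH (fun _ => gam) (lab L3.s ω)
          (fun G => if XX (lab L3.v ω) (lab L3.s ω) G then (1 : ℝ) else 0)) +
        EX (w3 p sg) (fun ω => TH (fun _ => gam) (lab L3.s ω)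
          (fun G => if ∃ f ∈ lab L3.v ω, f ∉ Es ∧
            Sg D gam nu kap₀ (t₀ / ((kap₀ : ℝ) + 1) ^ 2) (lab L3.v ω) (lab L3.s ω) G f
            then (1 : ℝ) else 0)) := by
      rw [← EX_add]
      refine EX_congr (fun _ _ => rfl) fun ω => ?_
      rw [TH_add]
    rw [h2]
    linarith
  refine h1.trans ?_
  have h3 := split_law p sg gam (fun V S G => if XX V S G then (1 : ℝ) else 0)
  rw [h3]
  -- the relabelling
  have hdis : ∀ κ : E → L4, (lab L4.g κ ∪ lab L4.r κ) \ lab L4.g κ = lab L4.r κ := by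
    intro κ
    ext e
    simp only [mem_sdiff, mem_union, mem_lab]
    constructor
    · rintro ⟨h | h, h'⟩
      · exact absurd h h'
      · exact h
    · intro h
      exact ⟨Or.inr h, by rw [h]; decide⟩
  obtain ⟨U, hU1, hU2, hU3⟩ := jstar_label' L4.v L4.g (by decide) (w4 p sg gam) hw4 lam hlam
    (fun e => by simpa only [w4] using hl e)
    (fun κ A => InF D kap₁ gam nu t₁' a (lab L4.r κ) A)
    (fun κ A B hAB hA => InF_mono hr hAB hA)
    (fun κ κ' hS A hA => by
      have h4 : lab L4.r κ' = lab L4.r κ := by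
        ext e
        simp only [mem_lab]
        rcases hS e with h | ⟨h, h'⟩
        · rw [h]
        · rcases h with h | h <;> rcases h' with h' | h' <;> rw [h, h'] <;> decide
      rw [h4]
      exact hA)
    (fun κ => XX (lab L4.v κ) (lab L4.g κ ∪ lab L4.r κ) (lab L4.g κ))
    (fun κ => K (lab L4.v κ) (lab L4.g κ ∪ lab L4.r κ))
    (fun κ hE => by
      obtain ⟨hB, -, hI⟩ := (hXX _ _ _).1 hE
      refine ⟨fun e he => mem_lab.1 ((hK _ _ hB).1 he), ?_⟩
      rwa [hdis] at hI)
  have h4 : EX (w4 p sg gam) (fun κ =>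
      if XX (lab L4.v κ) (lab L4.g κ ∪ lab L4.r κ) (lab L4.g κ) then (1 : ℝ) else 0) ≤
      EX (w4 p sg gam) (fun κ =>
        if XX (lab L4.v κ) (lab L4.g κ ∪ lab L4.r κ) (lab L4.g κ) ∧ kap₀ + 1 ≤ (U κ).card
          then (1 : ℝ) else 0) +
      EX (w4 p sg gam) (fun κ =>
        if XX (lab L4.v κ) (lab L4.g κ ∪ lab L4.r κ) (lab L4.g κ) then
          (fun κ' : E → L4 => if t₀ / (kap₀ + 1) <
            mis D (nu / (1 - gam)) (lab L4.r κ') (lab L4.g κ') then (1 : ℝ) else 0)
            (H379.flip L4.g (U κ) κ) else 0) := by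
    rw [← EX_add]
    refine EX_mono hw4 fun κ => ?_
    by_cases hX : XX (lab L4.v κ) (lab L4.g κ ∪ lab L4.r κ) (lab L4.g κ)
    · rw [if_pos hX, if_pos hX]
      by_cases hc : kap₀ + 1 ≤ (U κ).card
      · rw [if_pos ⟨hX, hc⟩]
        have : ∀ (P : Prop) [Decidable P], (1 : ℝ) ≤ 1 + (if P then (1 : ℝ) else 0) := by
          intro P _
          split_ifs <;> norm_num
        exact this _
      · rw [if_neg (fun h => hc h.2), zero_add]
        refine le_of_eq ?_
        symm
        obtain ⟨hUK, -⟩ := hU1 κ hX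
        obtain ⟨hB, hG, -⟩ := (hXX _ _ _).1 hX
        have hUv : ∀ e ∈ U κ, κ e = L4.v := fun e he => mem_lab.1 ((hK _ _ hB).1 (hUK he))
        have h5 : lab L4.r (H379.flip L4.g (U κ) κ) = lab L4.r κ := by
          ext e
          simp only [mem_lab, H379.flip]
          by_cases he : e ∈ U κ
          · rw [if_pos he, hUv e he]
            simp
          · rw [if_neg he]
        have h6 : lab L4.g (H379.flip L4.g (U κ) κ) = U κ ∪ lab L4.g κ := by
          rw [lab_flip, union_comm]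
        show (if t₀ / (kap₀ + 1) < mis D (nu / (1 - gam)) (lab L4.r (H379.flip L4.g (U κ) κ))
          (lab L4.g (H379.flip L4.g (U κ) κ)) then (1 : ℝ) else 0) = 1
        rw [h5, h6]
        refine if_pos ?_
        have hUc : (U κ).card ≤ kap₀ := by omega
        have h7 : t₀ / ((U κ).card + 1) <
            mis D (nu / (1 - gam)) ((lab L4.g κ ∪ lab L4.r κ) \ lab L4.g κ)
              (U κ ∪ lab L4.g κ) := by
          by_contra hcon
          exact hG ⟨U κ, hUK, hUc, not_lt.1 hcon⟩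
        rw [hdis] at h7
        refine lt_of_le_of_lt ?_ h7
        refine div_le_div_of_nonneg_left ht₀ (Nat.cast_add_one_pos _) ?_
        have : ((U κ).card : ℝ) ≤ kap₀ := by exact_mod_cast hUc
        linarith
    · rw [if_neg hX, if_neg hX, if_neg (fun h => hX h.1), add_zero]
  have h5 := hU3 (kap₀ + 1) (w4_sum p sg gam)
  have h6 := hU2 (fun κ' : E → L4 => if t₀ / (kap₀ + 1) <
    mis D (nu / (1 - gam)) (lab L4.r κ') (lab L4.g κ') then (1 : ℝ) else 0)
    (fun κ' => by split_ifs <;> norm_num)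
  have h7 : EX (w4 p sg gam) (fun κ =>
      if XX (lab L4.v κ) (lab L4.g κ ∪ lab L4.r κ) (lab L4.g κ) ∧ kap₀ + 1 ≤ (U κ).card
        then (1 : ℝ) else 0) ≤ (lam ^ (kap₀ + 1))⁻¹ := by
    have h8 : (0 : ℝ) < lam ^ (kap₀ + 1) := pow_pos (lt_of_lt_of_le one_pos hlam) _
    rw [← one_div, le_div_iff₀ h8, mul_comm]
    convert h5
  have h8 : EX (w4 p sg gam) (fun κ => if InF D kap₁ gam nu t₁' a (lab L4.r κ) (lab L4.g κ)
      then (fun κ' : E → L4 => if t₀ / (kap₀ + 1) <
        mis D (nu / (1 - gam)) (lab L4.r κ') (lab L4.g κ') then (1 : ℝ) else 0) κ else 0) ≤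
      q / a := by
    rw [le_div_iff₀ ha, mul_comm, ← EX_mul]
    refine le_trans (EX_mono hw4 fun κ => ?_) hq
    have h9 : 0 ≤ TH (fun _ => gam / (1 - gam)) (lab L4.r κ)
        (fun G => if QEv D kap₁ gam nu t₁' a (lab L4.r κ) (lab L4.g κ) G then (1 : ℝ) else 0)
        := TH_nonneg (fun _ => hr.a0) (fun _ => hr.a1) _ fun _ _ => by
          split_ifs <;> norm_num
    by_cases hI : InF D kap₁ gam nu t₁' a (lab L4.r κ) (lab L4.g κ)
    · rw [if_pos hI]
      by_cases hm : t₀ / (kap₀ + 1) < mis D (nu / (1 - gam)) (lab L4.r κ) (lab L4.g κ)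
      · show a * (if t₀ / (kap₀ + 1) < mis D (nu / (1 - gam)) (lab L4.r κ) (lab L4.g κ)
          then (1 : ℝ) else 0) ≤ _
        rw [if_pos hm, mul_one]
        exact nat_side hr hat hI hm
      · show a * (if t₀ / (kap₀ + 1) < mis D (nu / (1 - gam)) (lab L4.r κ) (lab L4.g κ)
          then (1 : ℝ) else 0) ≤ _
        rw [if_neg hm, mul_zero]
        exact h9
    · rw [if_neg hI, mul_zero]
      exact h9
  have h6' : EX (w4 p sg gam) (fun κ =>
        if XX (lab L4.v κ) (lab L4.g κ ∪ lab L4.r κ) (lab L4.g κ) then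
          (fun κ' : E → L4 => if t₀ / (kap₀ + 1) <
            mis D (nu / (1 - gam)) (lab L4.r κ') (lab L4.g κ') then (1 : ℝ) else 0)
            (H379.flip L4.g (U κ) κ) else 0) ≤ q / a := by
    refine le_trans ?_ (h6.trans (le_trans (le_of_eq ?_) h8))
    · exact le_of_eq (by congr 1)
    · congr 1
  linarith

end Vale.Agent.P331.H722
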